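import Mathlib
import Crest.Agent.S0324Lib.Area

/-!
# Helper lemmas for S0329 (cylinders with open bases covering a ruled set in `ℝ³`)

* `s329_exists_open_base`: a compact subset `Q` of the plane `u^⊥` sits inside a bounded relatively
  open subset of that plane of area at most `area Q + η`.
* `s329_area_base`: the area of the perpendicular cross-section of the sheared square.
* `s329_mem_cyl`: points of the sheared cylinder lie in the cylinder over that cross-section.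
-/

set_option autoImplicit false
open MeasureTheory
open scoped ENNReal

namespace Crest.Agent.S0329Lib

/-- Orthogonal projection along a unit vector `u`. -/
noncomputable def s329proj (u y : EuclideanSpace ℝ (Fin 3)) : EuclideanSpace ℝ (Fin 3) :=
  y - inner ℝ y u • u

/-- The lift `(ξ₀, ξ₁) ↦ (0, ξ₀, h ξ₁)` of the plane into `ℝ³`. -/
noncomputable def s329lift (h : ℝ) (v : EuclideanSpace ℝ (Fin 2)) : EuclideanSpace ℝ (Fin 3) :=
  !₂[0, v 0, h * v 1]

/-- The direction `(1, g₀, h g₁)` of a sheared cylinder. -/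
noncomputable def s329dir (h : ℝ) (g : EuclideanSpace ℝ (Fin 2)) : EuclideanSpace ℝ (Fin 3) :=
  !₂[1, g 0, h * g 1]

/-- The normalising factor `√(1 + g₀² + h² g₁²)`. -/
noncomputable def s329N (h : ℝ) (g : EuclideanSpace ℝ (Fin 2)) : ℝ :=
  Real.sqrt (1 + (g 0) ^ 2 + h ^ 2 * (g 1) ^ 2)

/-- The unit axis of a sheared cylinder. -/
noncomputable def s329u (h : ℝ) (g : EuclideanSpace ℝ (Fin 2)) : EuclideanSpace ℝ (Fin 3) :=
  (s329N h g)⁻¹ • s329dir h g

theorem s329N_pos (h : ℝ) (g : EuclideanSpace ℝ (Fin 2)) : 0 < s329N h g := by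
  unfold s329N
  apply Real.sqrt_pos.2
  positivity

theorem s329N_sq (h : ℝ) (g : EuclideanSpace ℝ (Fin 2)) :
    s329N h g ^ 2 = 1 + (g 0) ^ 2 + h ^ 2 * (g 1) ^ 2 := by
  unfold s329N
  rw [Real.sq_sqrt]
  positivity

theorem s329dir_norm_sq (h : ℝ) (g : EuclideanSpace ℝ (Fin 2)) :
    ‖s329dir h g‖ ^ 2 = 1 + (g 0) ^ 2 + h ^ 2 * (g 1) ^ 2 := by
  rw [EuclideanSpace.norm_sq_eq]
  simp [s329dir, Fin.sum_univ_three]
  ring

theorem s329dir_norm (h : ℝ) (g : EuclideanSpace ℝ (Fin 2)) : ‖s329dir h g‖ = s329N h g := by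
  have h1 := s329dir_norm_sq h g
  rw [← s329N_sq] at h1
  exact (sq_eq_sq₀ (norm_nonneg _) (s329N_pos h g).le).1 h1

theorem s329u_norm (h : ℝ) (g : EuclideanSpace ℝ (Fin 2)) : ‖s329u h g‖ = 1 := by
  unfold s329u
  rw [norm_smul, s329dir_norm, Real.norm_eq_abs, abs_of_pos (inv_pos.2 (s329N_pos h g))]
  exact inv_mul_cancel₀ (s329N_pos h g).ne'

theorem s329u_ne_zero (h : ℝ) (g : EuclideanSpace ℝ (Fin 2)) : s329u h g ≠ 0 := by
  intro h0
  have := s329u_norm h g
  rw [h0, norm_zero] at this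
  exact zero_ne_one this

theorem s329N_smul_u (h : ℝ) (g : EuclideanSpace ℝ (Fin 2)) :
    s329N h g • s329u h g = s329dir h g := by
  unfold s329u
  rw [smul_smul, mul_inv_cancel₀ (s329N_pos h g).ne', one_smul]

theorem s329proj_inner {u : EuclideanSpace ℝ (Fin 3)} (hu : ‖u‖ = 1)
    (y : EuclideanSpace ℝ (Fin 3)) : inner ℝ (s329proj u y) u = 0 := by
  unfold s329proj
  rw [inner_sub_left, inner_smul_left, real_inner_self_eq_norm_sq, hu]
  simp

theorem s329proj_add (u y z : EuclideanSpace ℝ (Fin 3)) :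
    s329proj u (y + z) = s329proj u y + s329proj u z := by
  unfold s329proj
  rw [inner_add_left, add_smul]
  abel

theorem s329proj_smul (u y : EuclideanSpace ℝ (Fin 3)) (t : ℝ) :
    s329proj u (t • y) = t • s329proj u y := by
  unfold s329proj
  rw [inner_smul_left, smul_sub, smul_smul]
  simp

/-- The perpendicular cross-section (a parallelogram in `u^⊥`) of the sheared cylinder over the
square `c + [0,1] a + [0,1] b` with velocity `g`. -/
def s329base (h : ℝ) (c a b g : EuclideanSpace ℝ (Fin 2)) : Set (EuclideanSpace ℝ (Fin 3)) :=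
  {x | ∃ s ∈ Set.Icc (0 : ℝ) 1, ∃ t ∈ Set.Icc (0 : ℝ) 1,
    x = s329proj (s329u h g) (s329lift h c) + s • s329proj (s329u h g) (s329lift h a) +
      t • s329proj (s329u h g) (s329lift h b)}

theorem s329base_inner (h : ℝ) (c a b g : EuclideanSpace ℝ (Fin 2)) :
    ∀ x ∈ s329base h c a b g, inner ℝ x (s329u h g) = 0 := by
  rintro x ⟨s, -, t, -, rfl⟩
  have hu := s329u_norm h g
  rw [inner_add_left, inner_add_left, inner_smul_left, inner_smul_left, s329proj_inner hu,
    s329proj_inner hu, s329proj_inner hu]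
  simp

theorem s329base_isCompact (h : ℝ) (c a b g : EuclideanSpace ℝ (Fin 2)) :
    IsCompact (s329base h c a b g) := by
  have h1 : s329base h c a b g =
      (fun p : ℝ × ℝ => s329proj (s329u h g) (s329lift h c) +
        p.1 • s329proj (s329u h g) (s329lift h a) + p.2 • s329proj (s329u h g) (s329lift h b)) ''
        (Set.Icc (0 : ℝ) 1 ×ˢ Set.Icc (0 : ℝ) 1) := by
    ext x
    constructor
    · rintro ⟨s, hs, t, ht, rfl⟩
      exact ⟨(s, t), ⟨hs, ht⟩, rfl⟩
    · rintro ⟨⟨s, t⟩, ⟨hs, ht⟩, rfl⟩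
      exact ⟨s, hs, t, ht, rfl⟩
  rw [h1]
  apply IsCompact.image (isCompact_Icc.prod isCompact_Icc)
  fun_prop

/-- Pure algebra behind the area of the cross-section. -/
theorem s329_alg (a0 a1 b0 b1 g0 g1 h q : ℝ)
    (hq : q * (1 + g0 ^ 2 + h ^ 2 * g1 ^ 2) = 1) :
    ((a0 ^ 2 + h ^ 2 * a1 ^ 2) - q * (a0 * g0 + h ^ 2 * a1 * g1) ^ 2) *
        ((b0 ^ 2 + h ^ 2 * b1 ^ 2) - q * (b0 * g0 + h ^ 2 * b1 * g1) ^ 2) -
      ((a0 * b0 + h ^ 2 * a1 * b1) -
        q * ((a0 * g0 + h ^ 2 * a1 * g1) * (b0 * g0 + h ^ 2 * b1 * g1))) ^ 2 =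
      q * (h ^ 2 * (a0 * b1 - a1 * b0) ^ 2) := by
  linear_combination (-(h ^ 2 * (a0 * b1 - a1 * b0) ^ 2)) * hq

theorem s329_inner_lift_u (h : ℝ) (a g : EuclideanSpace ℝ (Fin 2)) :
    inner ℝ (s329lift h a) (s329u h g) =
      (s329N h g)⁻¹ * (a 0 * g 0 + h ^ 2 * a 1 * g 1) := by
  unfold s329u
  rw [inner_smul_right]
  congr 1
  simp [s329lift, s329dir, PiLp.inner_apply, Fin.sum_univ_three]
  ring

theorem s329_inner_lift_lift (h : ℝ) (a b : EuclideanSpace ℝ (Fin 2)) :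
    inner ℝ (s329lift h a) (s329lift h b) = a 0 * b 0 + h ^ 2 * a 1 * b 1 := by
  simp [s329lift, PiLp.inner_apply, Fin.sum_univ_three]
  ring

theorem s329_norm_lift_sq (h : ℝ) (a : EuclideanSpace ℝ (Fin 2)) :
    ‖s329lift h a‖ ^ 2 = a 0 ^ 2 + h ^ 2 * a 1 ^ 2 := by
  rw [← real_inner_self_eq_norm_sq, s329_inner_lift_lift]
  ring

theorem s329_inner_proj_proj {u : EuclideanSpace ℝ (Fin 3)} (hu : ‖u‖ = 1)
    (x y : EuclideanSpace ℝ (Fin 3)) :
    inner ℝ (s329proj u x) (s329proj u y) = inner ℝ x y - inner ℝ x u * inner ℝ y u := by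
  unfold s329proj
  rw [inner_sub_left, inner_sub_right, inner_sub_right, inner_smul_left, inner_smul_right,
    inner_smul_right, inner_smul_left, real_inner_self_eq_norm_sq, hu, real_inner_comm u y]
  simp

/-- The Gram determinant of the projected lifted sides. -/
theorem s329_gram (h : ℝ) (a b g : EuclideanSpace ℝ (Fin 2))
    (hab : inner ℝ a b = 0) (hnorm : ‖b‖ = ‖a‖) :
    ‖s329proj (s329u h g) (s329lift h a)‖ ^ 2 * ‖s329proj (s329u h g) (s329lift h b)‖ ^ 2 -
        inner ℝ (s329proj (s329u h g) (s329lift h a)) (s329proj (s329u h g) (s329lift h b)) ^ 2 =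
      (h * ‖a‖ ^ 2 / s329N h g) ^ 2 := by
  have hu := s329u_norm h g
  have hNpos := s329N_pos h g
  have hNsq := s329N_sq h g
  rw [← real_inner_self_eq_norm_sq, ← real_inner_self_eq_norm_sq, s329_inner_proj_proj hu,
    s329_inner_proj_proj hu, s329_inner_proj_proj hu, s329_inner_lift_u, s329_inner_lift_u,
    s329_inner_lift_lift, s329_inner_lift_lift, s329_inner_lift_lift]
  set N := s329N h g with hN
  have hq : (N⁻¹) ^ 2 * (1 + g 0 ^ 2 + h ^ 2 * g 1 ^ 2) = 1 := by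
    rw [← hNsq]
    field_simp
  have halg := s329_alg (a 0) (a 1) (b 0) (b 1) (g 0) (g 1) h ((N⁻¹) ^ 2) hq
  have hab' : a 0 * b 0 + a 1 * b 1 = 0 := by
    rw [← hab]
    simp [PiLp.inner_apply, Fin.sum_univ_two]
    ring
  have hna : ‖a‖ ^ 2 = a 0 ^ 2 + a 1 ^ 2 := by
    rw [EuclideanSpace.norm_sq_eq]
    simp [Fin.sum_univ_two]
  have hnb : ‖b‖ ^ 2 = b 0 ^ 2 + b 1 ^ 2 := by
    rw [EuclideanSpace.norm_sq_eq]
    simp [Fin.sum_univ_two]
  have hnb' : b 0 ^ 2 + b 1 ^ 2 = a 0 ^ 2 + a 1 ^ 2 := by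
    rw [← hna, ← hnb, hnorm]
  have hdet : (a 0 * b 1 - a 1 * b 0) ^ 2 = (‖a‖ ^ 2) ^ 2 := by
    rw [hna]
    linear_combination (a 0 ^ 2 + a 1 ^ 2) * hnb' - (a 0 * b 0 + a 1 * b 1) * hab'
  have e1 : (h * ‖a‖ ^ 2 / N) ^ 2 = (N⁻¹) ^ 2 * (h ^ 2 * (a 0 * b 1 - a 1 * b 0) ^ 2) := by
    rw [hdet]
    field_simp
  rw [e1, ← halg]
  ring

/-- **Area of the perpendicular cross-section.** -/
theorem s329_area_base (h : ℝ) (hh : 0 < h) (c a b g : EuclideanSpace ℝ (Fin 2))
    (hab : inner ℝ a b = 0) (hnorm : ‖b‖ = ‖a‖) :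
    μHE[2] (s329base h c a b g) = ENNReal.ofReal (h * ‖a‖ ^ 2 / s329N h g) := by
  unfold s329base
  rw [Crest.Agent.S0324Lib.area_parallelogram, s329_gram h a b g hab hnorm,
    Real.sqrt_sq]
  have := s329N_pos h g
  positivity

/-- A point `(x, ξ₀, h ξ₁)` with `ξ = c + α a + β b + x g` lies in the cylinder over the base. -/
theorem s329_mem_cyl (h : ℝ) (c a b g ξ : EuclideanSpace ℝ (Fin 2)) (x α β : ℝ)
    (hα : α ∈ Set.Icc (0 : ℝ) 1) (hβ : β ∈ Set.Icc (0 : ℝ) 1)
    (hξ : ξ = c + α • a + β • b + x • g) :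
    ∃ y ∈ s329base h c a b g, ∃ τ : ℝ,
      (!₂[x, ξ 0, h * ξ 1] : EuclideanSpace ℝ (Fin 3)) = y + τ • s329u h g := by
  set u := s329u h g with hu
  set w : EuclideanSpace ℝ (Fin 3) := s329lift h c + α • s329lift h a + β • s329lift h b with hw
  refine ⟨s329proj u (s329lift h c) + α • s329proj u (s329lift h a) +
    β • s329proj u (s329lift h b), ⟨α, hα, β, hβ, rfl⟩, inner ℝ w u + x * s329N h g, ?_⟩
  have e1 : (!₂[x, ξ 0, h * ξ 1] : EuclideanSpace ℝ (Fin 3)) = w + x • s329dir h g := by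
    rw [hw, hξ]
    ext i
    fin_cases i <;> simp [s329lift, s329dir] <;> ring
  have e2 : s329proj u (s329lift h c) + α • s329proj u (s329lift h a) +
      β • s329proj u (s329lift h b) = s329proj u w := by
    rw [hw, s329proj_add, s329proj_add, s329proj_smul, s329proj_smul]
  rw [e1, e2, add_smul, mul_smul, hu, s329N_smul_u]
  unfold s329proj
  abel

/-- A compact subset of the plane `u^⊥` is contained in a bounded relatively open subset of that
plane whose area exceeds the area of the compact set by at most `η`. -/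
theorem s329_exists_open_base {u : EuclideanSpace ℝ (Fin 3)} (hu : u ≠ 0)
    {Q : Set (EuclideanSpace ℝ (Fin 3))} (hQ : IsCompact Q)
    (hQu : ∀ x ∈ Q, inner ℝ x u = 0) {η : ℝ} (hη : 0 < η) :
    ∃ O : Set (EuclideanSpace ℝ (Fin 3)), IsOpen O ∧ Q ⊆ O ∧
      Bornology.IsBounded (O ∩ {x | inner ℝ x u = 0}) ∧
      (μHE[2] (O ∩ {x | inner ℝ x u = 0})).toReal ≤ (μHE[2] Q).toReal + η := by
  set P : Set (EuclideanSpace ℝ (Fin 3)) := {x | inner ℝ x u = 0} with hP
  set μ : Measure (EuclideanSpace ℝ (Fin 3)) := (μHE[2]).restrict P with hμ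
  have hbdd : ∀ R : ℝ, Bornology.IsBounded (Metric.cthickening R Q ∩ P) := fun R =>
    hQ.isBounded.cthickening.subset Set.inter_subset_left
  have hfin' : ∀ R : ℝ, μHE[2] (Metric.cthickening R Q ∩ P) < ⊤ := fun R =>
    Crest.Agent.S0324Lib.area_lt_top_of_isBounded_of_inner_eq_zero hu (hbdd R) (fun x hx => hx.2)
  have hμapp : ∀ R : ℝ, μ (Metric.cthickening R Q) = μHE[2] (Metric.cthickening R Q ∩ P) := by
    intro R
    rw [hμ, Measure.restrict_apply Metric.isClosed_cthickening.measurableSet]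
  have hlim := tendsto_measure_cthickening (μ := μ) (s := Q)
    ⟨1, one_pos, by rw [hμapp]; exact (hfin' 1).ne⟩
  rw [hQ.isClosed.closure_eq] at hlim
  have hQP : Q ∩ P = Q := Set.inter_eq_left.2 hQu
  have hμQ : μ Q = μHE[2] Q := by
    rw [hμ, Measure.restrict_apply hQ.measurableSet, hQP]
  have hQfin : μHE[2] Q < ⊤ :=
    Crest.Agent.S0324Lib.area_lt_top_of_isBounded_of_inner_eq_zero hu hQ.isBounded hQu
  rw [hμQ] at hlim
  have hlt : μHE[2] Q < μHE[2] Q + ENNReal.ofReal η :=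
    ENNReal.lt_add_right hQfin.ne (by simpa using hη)
  have hev := hlim.eventually_lt_const hlt
  have hev' : ∀ᶠ r in nhdsWithin (0 : ℝ) (Set.Ioi 0),
      μ (Metric.cthickening r Q) < μHE[2] Q + ENNReal.ofReal η :=
    hev.filter_mono nhdsWithin_le_nhds
  obtain ⟨r, hr, hr0⟩ := (hev'.and self_mem_nhdsWithin).exists
  have hr0' : 0 < r := hr0
  refine ⟨Metric.thickening r Q, Metric.isOpen_thickening, Metric.self_subset_thickening hr0' Q,
    (hbdd r).subset (Set.inter_subset_inter_left _ (Metric.thickening_subset_cthickening r Q)), ?_⟩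
  have h1 : μHE[2] (Metric.thickening r Q ∩ P) ≤ μHE[2] Q + ENNReal.ofReal η := by
    calc μHE[2] (Metric.thickening r Q ∩ P) ≤ μHE[2] (Metric.cthickening r Q ∩ P) :=
          measure_mono (Set.inter_subset_inter_left _ (Metric.thickening_subset_cthickening r Q))
      _ = μ (Metric.cthickening r Q) := (hμapp r).symm
      _ ≤ μHE[2] Q + ENNReal.ofReal η := hr.le
  have h2 : (μHE[2] Q + ENNReal.ofReal η).toReal = (μHE[2] Q).toReal + η := by
    rw [ENNReal.toReal_add hQfin.ne ENNReal.ofReal_ne_top, ENNReal.toReal_ofReal hη.le]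
  rw [← h2]
  exact ENNReal.toReal_mono (ENNReal.add_ne_top.2 ⟨hQfin.ne, ENNReal.ofReal_ne_top⟩) h1

end Crest.Agent.S0329Lib
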