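import Mathlib
import Crest.Agent.S0324Lib.Area
import Crest.Agent.TetraLib.Defs
import Crest.Agent.S0329Lib.Base

/-!
# Proofs of the `TetraLib/Area.lean` interface statements (helper7, for helper4)

Every theorem `tetraArea_<name>` below has exactly the statement of `Crest.Agent.Tetra.<name>` in
`TetraLib/Area.lean` (the two `ofOblique` lemmas are stated with the structure fields unfolded).
Imports only Mathlib, `S0324Lib/Area.lean` (helper5), `TetraLib/Defs.lean` and `S0329Lib/Base.lean`.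
-/

set_option autoImplicit false
open MeasureTheory
open scoped ENNReal

namespace Crest.Agent.S0329Lib

open Crest.Agent.Tetra

/-! ### coordinates -/

theorem tetraArea_inner_coord (a b : E3) :
    inner ℝ a b = a 0 * b 0 + a 1 * b 1 + a 2 * b 2 := by
  simp [PiLp.inner_apply, Fin.sum_univ_three]
  ring

theorem tetraArea_norm_sq_coord (a : E3) : ‖a‖ ^ 2 = a 0 ^ 2 + a 1 ^ 2 + a 2 ^ 2 := by
  rw [← real_inner_self_eq_norm_sq, tetraArea_inner_coord]
  ring

theorem tetraArea_gram_coord (a b : E3) :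
    gram a b = (a 1 * b 2 - a 2 * b 1) ^ 2 + (a 2 * b 0 - a 0 * b 2) ^ 2 +
      (a 0 * b 1 - a 1 * b 0) ^ 2 := by
  unfold gram
  rw [tetraArea_norm_sq_coord, tetraArea_norm_sq_coord, tetraArea_inner_coord]
  ring

/-! ### algebra of `gram`, `det3`, projections -/

theorem tetraArea_gram_nonneg (a b : E3) : 0 ≤ gram a b := by
  rw [tetraArea_gram_coord]
  positivity

theorem tetraArea_projU_add (u y z : E3) : projU u (y + z) = projU u y + projU u z := by
  unfold projU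
  rw [inner_add_left, add_smul]
  abel

theorem tetraArea_projU_sub (u y z : E3) : projU u (y - z) = projU u y - projU u z := by
  unfold projU
  rw [inner_sub_left, sub_smul]
  abel

theorem tetraArea_projU_smul (u y : E3) (t : ℝ) : projU u (t • y) = t • projU u y := by
  unfold projU
  rw [inner_smul_left, smul_sub, smul_smul]
  simp

theorem tetraArea_projU_apply (u y : E3) (i : Fin 3) :
    projU u y i = y i - inner ℝ y u * u i := by
  simp [projU]

theorem tetraArea_inner_projU_projU (u x y : E3) (hu : ‖u‖ = 1) :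
    inner ℝ (projU u x) (projU u y) = inner ℝ x y - inner ℝ x u * inner ℝ y u := by
  unfold projU
  rw [inner_sub_left, inner_sub_right, inner_sub_right, inner_smul_left, inner_smul_right,
    inner_smul_right, inner_smul_left, real_inner_self_eq_norm_sq, hu, real_inner_comm u y]
  simp

theorem tetraArea_gram_projU (a b u : E3) (hu : ‖u‖ = 1) :
    gram (projU u a) (projU u b) = (det3 a b u) ^ 2 := by
  have hu2 : u 0 ^ 2 + u 1 ^ 2 + u 2 ^ 2 = 1 := by
    rw [← tetraArea_norm_sq_coord, hu]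
    norm_num
  unfold gram
  rw [← real_inner_self_eq_norm_sq, ← real_inner_self_eq_norm_sq,
    tetraArea_inner_projU_projU _ _ _ hu, tetraArea_inner_projU_projU _ _ _ hu,
    tetraArea_inner_projU_projU _ _ _ hu]
  simp only [tetraArea_inner_coord, det3]
  linear_combination
    (-((a 1 * b 2 - a 2 * b 1) ^ 2 + (a 2 * b 0 - a 0 * b 2) ^ 2 +
      (a 0 * b 1 - a 1 * b 0) ^ 2)) * hu2

theorem tetraArea_norm_normalize (d : E3) (hd : d ≠ 0) : ‖(‖d‖⁻¹ • d : E3)‖ = 1 := by
  rw [norm_smul, norm_inv, norm_norm]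
  exact inv_mul_cancel₀ (norm_ne_zero_iff.2 hd)

theorem tetraArea_projD_eq_projU (d y : E3) (hd : d ≠ 0) :
    projD d y = projU (‖d‖⁻¹ • d) y := by
  unfold projD projU
  rw [inner_smul_right, smul_smul]
  congr 2
  have : ‖d‖ ≠ 0 := norm_ne_zero_iff.2 hd
  field_simp

theorem tetraArea_det3_smul_right (a b d : E3) (t : ℝ) :
    det3 a b (t • d) = t * det3 a b d := by
  simp [det3]
  ring

theorem tetraArea_gram_projD (a b d : E3) (hd : d ≠ 0) :
    gram (projD d a) (projD d b) = (det3 a b d) ^ 2 / ‖d‖ ^ 2 := by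
  rw [tetraArea_projD_eq_projU d a hd, tetraArea_projD_eq_projU d b hd,
    tetraArea_gram_projU _ _ _ (tetraArea_norm_normalize d hd), tetraArea_det3_smul_right]
  have : ‖d‖ ≠ 0 := norm_ne_zero_iff.2 hd
  field_simp

theorem tetraArea_projU_of_perp (u y : E3) (hy : inner ℝ y u = 0) : projU u y = y := by
  unfold projU
  rw [hy]
  simp

theorem tetraArea_det3_sq_of_perp (a b e : E3) (he : ‖e‖ = 1) (ha : inner ℝ a e = 0)
    (hb : inner ℝ b e = 0) : (det3 a b e) ^ 2 = gram a b := by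
  rw [← tetraArea_gram_projU a b e he, tetraArea_projU_of_perp e a ha,
    tetraArea_projU_of_perp e b hb]

theorem tetraArea_inner_projU_self (u y : E3) (hu : ‖u‖ = 1) : inner ℝ (projU u y) u = 0 := by
  unfold projU
  rw [inner_sub_left, inner_smul_left, real_inner_self_eq_norm_sq, hu]
  simp

theorem tetraArea_inner_projD_self (d y : E3) (hd : d ≠ 0) : inner ℝ (projD d y) d = 0 := by
  rw [tetraArea_projD_eq_projU d y hd]
  have h := tetraArea_inner_projU_self (‖d‖⁻¹ • d) y (tetraArea_norm_normalize d hd)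
  rw [inner_smul_right] at h
  have : ‖d‖⁻¹ ≠ 0 := inv_ne_zero (norm_ne_zero_iff.2 hd)
  exact (mul_eq_zero.1 h).resolve_left this

/-! ### areas -/

theorem tetraArea_muHE_par (c a b : E3) :
    μHE[2] (par c a b) = ENNReal.ofReal (Real.sqrt (gram a b)) :=
  Crest.Agent.S0324Lib.area_parallelogram c a b

theorem tetraArea_muHE_tri (p q r : E3) :
    μHE[2] (convexHull ℝ ({p, q, r} : Set E3)) =
      ENNReal.ofReal (Real.sqrt (gram (q - p) (r - p)) / 2) :=
  Crest.Agent.S0324Lib.area_triangle p q r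

theorem tetraArea_muHE_tri_projU (P Q R u : E3) (hu : ‖u‖ = 1) :
    μHE[2] (convexHull ℝ ({projU u P, projU u Q, projU u R} : Set E3)) =
      ENNReal.ofReal (|det3 (Q - P) (R - P) u| / 2) := by
  rw [tetraArea_muHE_tri, ← tetraArea_projU_sub, ← tetraArea_projU_sub,
    tetraArea_gram_projU _ _ _ hu, Real.sqrt_sq_eq_abs]

theorem tetraArea_muHE_tri_projD (P Q R d : E3) (hd : d ≠ 0) :
    μHE[2] (convexHull ℝ ({projD d P, projD d Q, projD d R} : Set E3)) =
      ENNReal.ofReal (|det3 (Q - P) (R - P) d| / (2 * ‖d‖)) := by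
  rw [tetraArea_projD_eq_projU d P hd, tetraArea_projD_eq_projU d Q hd,
    tetraArea_projD_eq_projU d R hd,
    tetraArea_muHE_tri_projU _ _ _ _ (tetraArea_norm_normalize d hd),
    tetraArea_det3_smul_right, abs_mul, abs_inv, abs_norm]
  congr 1
  have : ‖d‖ ≠ 0 := norm_ne_zero_iff.2 hd
  field_simp

theorem tetraArea_muHE_par_projU (C A B u : E3) (hu : ‖u‖ = 1) :
    μHE[2] (par (projU u C) (projU u A) (projU u B)) = ENNReal.ofReal |det3 A B u| := by
  rw [tetraArea_muHE_par, tetraArea_gram_projU _ _ _ hu, Real.sqrt_sq_eq_abs]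

theorem tetraArea_exists_muH_factor :
    ∃ κ : ℝ, 0 < κ ∧ ∀ s : Set E3, μH[(2 : ℝ)] s = ENNReal.ofReal κ * μHE[2] s := by
  set c := Measure.addHaarScalarFactor (volume : Measure (EuclideanSpace ℝ (Fin 2))) μH[(2 : ℕ)]
    with hc
  have hc0 : c ≠ 0 := Measure.addHaarScalarFactor_volume_hausdorffMeasure_ne_zero 2
  have hcpos : (0 : ℝ) < c := by positivity
  refine ⟨(c : ℝ)⁻¹, inv_pos.2 hcpos, fun s => ?_⟩
  have h : μHE[2] s = (c : ℝ≥0∞) * μH[((2 : ℕ) : ℝ)] s := by
    rw [Measure.euclideanHausdorffMeasure_def, Measure.smul_apply]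
    rfl
  have h2 : (μH[((2 : ℕ) : ℝ)] s) = μH[(2 : ℝ)] s := by norm_num
  rw [h, h2, ← mul_assoc]
  have h3 : ENNReal.ofReal (c : ℝ)⁻¹ * (c : ℝ≥0∞) = 1 := by
    rw [← ENNReal.ofReal_coe_nnreal, ← ENNReal.ofReal_mul (inv_pos.2 hcpos).le,
      inv_mul_cancel₀ hcpos.ne', ENNReal.ofReal_one]
  rw [h3, one_mul]

theorem tetraArea_muHE_lt_top_of_bounded_plane (u : E3) (hu : ‖u‖ = 1) (B : Set E3)
    (hB : Bornology.IsBounded B) (hsub : ∀ x ∈ B, inner ℝ x u = 0) : μHE[2] B < ⊤ := by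
  have hu0 : u ≠ 0 := by
    intro h0
    rw [h0, norm_zero] at hu
    exact zero_ne_one hu
  exact Crest.Agent.S0324Lib.area_lt_top_of_isBounded_of_inner_eq_zero hu0 hB hsub

theorem tetraArea_muHE_line_eq_zero (p d : E3) (B : Set E3)
    (hB : ∀ x ∈ B, ∃ t : ℝ, x = p + t • d) : μHE[2] B = 0 := by
  have hsub : B ⊆ (fun y : E3 => p + y) ''
      (Crest.Agent.S0324Lib.areaLin d 0 '' (Set.univ : Set (EuclideanSpace ℝ (Fin 2)))) := by
    intro x hx
    obtain ⟨t, rfl⟩ := hB x hx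
    refine ⟨t • d, ⟨!₂[t, 0], Set.mem_univ _, ?_⟩, rfl⟩
    simp [Crest.Agent.S0324Lib.areaLin_apply]
  have h0 : μHE[2] (Crest.Agent.S0324Lib.areaLin d 0 ''
      (Set.univ : Set (EuclideanSpace ℝ (Fin 2)))) = 0 := by
    have h := (Crest.Agent.S0324Lib.areaLin d 0).euclideanHausdorffMeasure_image_eq_normDet_mul_volume
      (Set.univ : Set (EuclideanSpace ℝ (Fin 2)))
    rw [finrank_euclideanSpace_fin] at h
    rw [h, Crest.Agent.S0324Lib.areaLin_normDet]
    simp
  have h1 : μHE[2] ((fun y : E3 => p + y) ''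
      (Crest.Agent.S0324Lib.areaLin d 0 '' (Set.univ : Set (EuclideanSpace ℝ (Fin 2))))) = 0 := by
    rw [Set.image_add_left, measure_preimage_add, h0]
  exact measure_mono_null hsub h1

theorem tetraArea_exists_open_base (u : E3) (hu : ‖u‖ = 1) (B₀ : Set E3) (hB₀ : IsCompact B₀)
    (hsub : ∀ x ∈ B₀, inner ℝ x u = 0) (η : ℝ) (hη : 0 < η) :
    ∃ B : Set E3, B₀ ⊆ B ∧ Bornology.IsBounded B ∧
      (∃ O : Set E3, IsOpen O ∧ B = O ∩ {x | inner ℝ x u = 0}) ∧
      (μHE[2] B).toReal ≤ (μHE[2] B₀).toReal + η := by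
  have hu0 : u ≠ 0 := by
    intro h0
    rw [h0, norm_zero] at hu
    exact zero_ne_one hu
  obtain ⟨O, hO, hsubO, hbdd, hle⟩ := s329_exists_open_base hu0 hB₀ hsub hη
  exact ⟨O ∩ {x | inner ℝ x u = 0}, fun x hx => ⟨hsubO hx, hsub x hx⟩, hbdd, ⟨O, hO, rfl⟩, hle⟩

/-! ### convex hull of three points, oblique cylinders -/

theorem tetraArea_mem_convexHull_triple {P Q R : E3} {α β γ : ℝ} (hα : 0 ≤ α) (hβ : 0 ≤ β)
    (hγ : 0 ≤ γ) (h : α + β + γ = 1) :
    α • P + β • Q + γ • R ∈ convexHull ℝ ({P, Q, R} : Set E3) := by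
  rw [Crest.Agent.S0324Lib.area_mem_convexHull_triple]
  refine ⟨β, γ, hβ, hγ, by linarith, ?_⟩
  have hα' : α = 1 - β - γ := by linarith
  rw [hα']
  module

theorem tetraArea_exists_of_mem_convexHull_triple {P Q R x : E3}
    (hx : x ∈ convexHull ℝ ({P, Q, R} : Set E3)) :
    ∃ α β γ : ℝ, 0 ≤ α ∧ 0 ≤ β ∧ 0 ≤ γ ∧ α + β + γ = 1 ∧ x = α • P + β • Q + γ • R := by
  rw [Crest.Agent.S0324Lib.area_mem_convexHull_triple] at hx
  obtain ⟨s, t, hs, ht, hst, rfl⟩ := hx
  refine ⟨1 - s - t, s, t, by linarith, hs, ht, by ring, ?_⟩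
  module

theorem tetraArea_projU_image_tri (u P Q R : E3) :
    (fun y => projU u y) '' convexHull ℝ ({P, Q, R} : Set E3) =
      convexHull ℝ ({projU u P, projU u Q, projU u R} : Set E3) := by
  set f : E3 →ₗ[ℝ] E3 :=
    { toFun := fun y => projU u y
      map_add' := tetraArea_projU_add u
      map_smul' := fun t y => by simpa using tetraArea_projU_smul u y t } with hf
  have h := f.image_convexHull ({P, Q, R} : Set E3)
  have h2 : (f : E3 → E3) '' ({P, Q, R} : Set E3) = {projU u P, projU u Q, projU u R} := by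
    simp [Set.image_insert_eq, hf]
  rw [h2] at h
  exact h

theorem tetraArea_ofOblique_carrier (d P Q R : E3) (hd : d ≠ 0) :
    {x : E3 | ∃ b ∈ convexHull ℝ ({P, Q, R} : Set E3), ∃ t : ℝ, x = b + t • d} ⊆
      triCyl (‖d‖⁻¹ • d) (projU (‖d‖⁻¹ • d) P) (projU (‖d‖⁻¹ • d) Q) (projU (‖d‖⁻¹ • d) R) := by
  rintro x ⟨b, hb, t, rfl⟩
  have hn : ‖d‖ ≠ 0 := norm_ne_zero_iff.2 hd
  refine ⟨projU (‖d‖⁻¹ • d) b, ?_, inner ℝ b (‖d‖⁻¹ • d) + t * ‖d‖, ?_⟩
  · rw [← tetraArea_projU_image_tri]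
    exact ⟨b, hb, rfl⟩
  · have hd' : ‖d‖ • (‖d‖⁻¹ • d) = d := by
      rw [smul_smul, mul_inv_cancel₀ hn, one_smul]
    unfold projU
    rw [add_smul, mul_smul, hd']
    abel

theorem tetraArea_ofOblique_area (d P Q R : E3) (hd : d ≠ 0) :
    (μHE[2] (convexHull ℝ ({projU (‖d‖⁻¹ • d) P, projU (‖d‖⁻¹ • d) Q,
      projU (‖d‖⁻¹ • d) R} : Set E3))).toReal = |det3 (Q - P) (R - P) d| / (2 * ‖d‖) := by
  have hn : ‖d‖ ≠ 0 := norm_ne_zero_iff.2 hd
  rw [tetraArea_muHE_tri_projU _ _ _ _ (tetraArea_norm_normalize d hd),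
    ENNReal.toReal_ofReal (by positivity), tetraArea_det3_smul_right, abs_mul, abs_inv, abs_norm]
  field_simp

end Crest.Agent.S0329Lib
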